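import Vale.Agent.P323.F.Valid
import Vale.Agent.P323.Z.NameTheory

/-!
# From the shallow statements `PPForced`, `NoAC` to forced sentences

For `[NameTheory C]`, `ofNT C : Atomic C` is the forcing data, and (if the pairing operation `op`
is the ordered pair of the forcing language, hypothesis `OpOK C`)
`valid_ppF : PPForced C → Valid (ofNT C) ppF`, `valid_neg_acF : NoAC C → Valid (ofNT C) acF.neg`.
-/

namespace Vale.Agent.P323.H530

open CategoryTheory Vale.Agent.P323.Z Vale.Agent.P323.Z.Fml Vale.Agent.P323.F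

universe u

/-- The atomic forcing data of a name theory. -/
def ofNT (C : Type u) [Category.{u} C] [NameTheory C] : Atomic.{u, u, u + 1} C where
  N := NameTheory.N
  mv := NameTheory.mv
  mv_id := NameTheory.mv_id
  mv_comp f g a := (NameTheory.mv_mv f g a).symm
  ne X := ⟨NameTheory.ck 0 X⟩
  feq := NameTheory.feq
  fmem := NameTheory.fmem
  feq_refl := NameTheory.feq_refl
  feq_symm := NameTheory.feq_symm
  feq_trans := NameTheory.feq_trans
  feq_mono := NameTheory.feq_mv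
  fmem_mono := NameTheory.fmem_mv
  feq_local h := NameTheory.feq_loc fun {Y} k => by
    obtain ⟨Z, l, hl⟩ := h Y k
    refine ⟨Z, l, ?_⟩
    rwa [NameTheory.mv_mv, NameTheory.mv_mv] at hl
  fmem_local h := NameTheory.fmem_loc fun {Y} k => by
    obtain ⟨Z, l, hl⟩ := h Y k
    refine ⟨Z, l, ?_⟩
    rwa [NameTheory.mv_mv, NameTheory.mv_mv] at hl
  fmem_congr := NameTheory.fmem_congr

section

variable {C : Type u} [Category.{u} C] [NameTheory C]

/-- The pairing operation of the name theory, seen on `ofNT C`. -/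
def opp {X : C} (σ τ : (ofNT C).N X) : (ofNT C).N X := NameTheory.op (C := C) σ τ

theorem opp_mv {X Y : C} (k : X ⟶ Y) (σ τ : (ofNT C).N X) :
    (ofNT C).feq ((ofNT C).mv k (opp σ τ)) (opp ((ofNT C).mv k σ) ((ofNT C).mv k τ)) :=
  NameTheory.op_mv k σ τ

theorem opp_mv2 {X Y Z : C} (k : X ⟶ Y) (l : Y ⟶ Z) (σ τ : (ofNT C).N X) :
    (ofNT C).feq ((ofNT C).mv l ((ofNT C).mv k (opp σ τ)))
      (opp ((ofNT C).mv l ((ofNT C).mv k σ)) ((ofNT C).mv l ((ofNT C).mv k τ))) :=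
  (ofNT C).feq_trans ((ofNT C).feq_mono l (opp_mv k σ τ)) (opp_mv l _ _)

theorem opp_feq {X : C} {σ τ σ' τ' : (ofNT C).N X} :
    (ofNT C).feq (opp σ τ) (opp σ' τ') ↔ (ofNT C).feq σ σ' ∧ (ofNT C).feq τ τ' :=
  NameTheory.op_feq

/-- `op` is the ordered pair of the forcing language. -/
def OpOK (C : Type u) [Category.{u} C] [NameTheory C] : Prop :=
  ∀ {n : ℕ} (p x y : Fin n) {X : C} (xs : Fin n → (ofNT C).N X),
    Forces (ofNT C) (opairF p x y) X xs ↔ (ofNT C).feq (xs p) (opp (xs x) (xs y))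

theorem forces_pairMemF (hop : OpOK C) {n : ℕ} (x y f : Fin n) {X : C}
    (xs : Fin n → (ofNT C).N X) :
    Forces (ofNT C) (pairMemF x y f) X xs ↔ (ofNT C).fmem (opp (xs x) (xs y)) (xs f) := by
  constructor
  · intro h
    rw [pairMemF, forces_ex] at h
    refine (ofNT C).fmem_local fun Y g => ?_
    obtain ⟨Z, k, a, ha⟩ := h Y g
    rw [forces_and, hop, forces_mem] at ha
    simp only [Fin.snoc_castSucc, Fin.snoc_last] at ha
    refine ⟨Z, k, ?_⟩
    exact (ofNT C).fmem_congr ((ofNT C).feq_trans ha.1 ((ofNT C).feq_symm (opp_mv2 g k _ _)))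
      ((ofNT C).feq_refl _) ha.2
  · intro h
    rw [pairMemF]
    refine forces_ex_of (opp (xs x) (xs y)) ?_
    rw [forces_and, hop, forces_mem]
    simp only [Fin.snoc_castSucc, Fin.snoc_last]
    exact ⟨(ofNT C).feq_refl _, h⟩

/-- Forced pair membership moves along extensions. -/
theorem pm_mv {X Y : C} (k : X ⟶ Y) {x y f : (ofNT C).N X} (h : (ofNT C).fmem (opp x y) f) :
    (ofNT C).fmem (opp ((ofNT C).mv k x) ((ofNT C).mv k y)) ((ofNT C).mv k f) :=
  (ofNT C).fmem_congr (opp_mv k x y) ((ofNT C).feq_refl _) ((ofNT C).fmem_mono k h)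

theorem pm_congr {X : C} {x x' y y' f : (ofNT C).N X} (hx : (ofNT C).feq x x')
    (hy : (ofNT C).feq y y') (h : (ofNT C).fmem (opp x y) f) : (ofNT C).fmem (opp x' y') f :=
  (ofNT C).fmem_congr (opp_feq.2 ⟨hx, hy⟩) ((ofNT C).feq_refl _) h

/-! ### Functions -/

/-- `FFun` in the language of `ofNT C`. -/
structure GFun {X : C} (F A B : (ofNT C).N X) : Prop where
  sub : ∀ {W : C} (v : X ⟶ W) (p : (ofNT C).N W), (ofNT C).fmem p ((ofNT C).mv v F) →
    ∃ (W' : C) (k : W ⟶ W') (x y : (ofNT C).N W'),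
      (ofNT C).fmem x ((ofNT C).mv k ((ofNT C).mv v A)) ∧
      (ofNT C).fmem y ((ofNT C).mv k ((ofNT C).mv v B)) ∧
      (ofNT C).feq ((ofNT C).mv k p) (opp x y)
  func : ∀ {W : C} (v : X ⟶ W) (x y y' : (ofNT C).N W),
    (ofNT C).fmem (opp x y) ((ofNT C).mv v F) →
    (ofNT C).fmem (opp x y') ((ofNT C).mv v F) → (ofNT C).feq y y'
  total : ∀ {W : C} (v : X ⟶ W) (x : (ofNT C).N W), (ofNT C).fmem x ((ofNT C).mv v A) →
    ∃ (W' : C) (k : W ⟶ W') (y : (ofNT C).N W'),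
      (ofNT C).fmem (opp ((ofNT C).mv k x) y) ((ofNT C).mv k ((ofNT C).mv v F))

theorem gfun_iff {X : C} (F A B : (ofNT C).N X) :
    GFun F A B ↔ FFun (C := C) (X := X) F A B := by
  constructor
  · intro h
    refine ⟨fun {W} v p hp => ?_, fun {W} v x y y' h1 h2 => h.func v x y y' h1 h2,
      fun {W} v x hx => ?_⟩
    · obtain ⟨W', k, x, y, h1, h2, h3⟩ := h.sub v p hp
      rw [← (ofNT C).mv_comp] at h1 h2
      exact ⟨W', k, x, y, h1, h2, h3⟩
    · obtain ⟨W', k, y, h1⟩ := h.total v x hx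
      rw [← (ofNT C).mv_comp] at h1
      exact ⟨W', k, y, h1⟩
  · intro h
    refine ⟨fun {W} v p hp => ?_, fun {W} v x y y' h1 h2 => h.func v x y y' h1 h2,
      fun {W} v x hx => ?_⟩
    · obtain ⟨W', k, x, y, h1, h2, h3⟩ := h.sub v p hp
      have h1' : (ofNT C).fmem x ((ofNT C).mv (v ≫ k) A) := h1
      have h2' : (ofNT C).fmem y ((ofNT C).mv (v ≫ k) B) := h2
      rw [(ofNT C).mv_comp] at h1' h2'
      exact ⟨W', k, x, y, h1', h2', h3⟩
    · obtain ⟨W', k, y, h1⟩ := h.total v x hx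
      have h1' : (ofNT C).fmem (opp ((ofNT C).mv k x) y) ((ofNT C).mv (v ≫ k) F) := h1
      rw [(ofNT C).mv_comp] at h1'
      exact ⟨W', k, y, h1'⟩

theorem forces_functionF (hop : OpOK C) {n : ℕ} (f a b : Fin n) {X : C}
    (xs : Fin n → (ofNT C).N X) :
    Forces (ofNT C) (functionF f a b) X xs ↔ GFun (xs f) (xs a) (xs b) := by
  rw [functionF, forces_and]
  constructor
  · rintro ⟨h1, h2⟩
    have sub : ∀ {W : C} (v : X ⟶ W) (p : (ofNT C).N W),
        (ofNT C).fmem p ((ofNT C).mv v (xs f)) →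
        ∃ (W' : C) (k : W ⟶ W') (x y : (ofNT C).N W'),
          (ofNT C).fmem x ((ofNT C).mv k ((ofNT C).mv v (xs a))) ∧
          (ofNT C).fmem y ((ofNT C).mv k ((ofNT C).mv v (xs b))) ∧
          (ofNT C).feq ((ofNT C).mv k p) (opp x y) := by
      intro W v p hp
      have h3 := h1 W v p W (𝟙 W)
      simp only [forces_mem, Fin.snoc_castSucc, Fin.snoc_last, (ofNT C).mv_id] at h3
      have h4 := h3 hp
      rw [forces_ex] at h4
      obtain ⟨Z, g, x, h5⟩ := h4 W (𝟙 W)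
      rw [forces_ex] at h5
      obtain ⟨Z', g', y, h6⟩ := h5 Z (𝟙 Z)
      rw [forces_and, forces_and, hop] at h6
      simp only [forces_mem, Fin.snoc_castSucc, Fin.snoc_last, (ofNT C).mv_id] at h6
      refine ⟨Z', g ≫ g', (ofNT C).mv g' x, y, ?_, ?_, ?_⟩
      · rw [(ofNT C).mv_comp]; exact h6.1
      · rw [(ofNT C).mv_comp]; exact h6.2.1
      · rw [(ofNT C).mv_comp]; exact h6.2.2
    have tot : ∀ {W : C} (v : X ⟶ W) (x : (ofNT C).N W),
        (ofNT C).fmem x ((ofNT C).mv v (xs a)) →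
        ∃ (W' : C) (k : W ⟶ W') (y : (ofNT C).N W'),
          (ofNT C).fmem (opp ((ofNT C).mv k x) y) ((ofNT C).mv k ((ofNT C).mv v (xs f))) ∧
          ∀ (V : C) (l : W' ⟶ V) (z : (ofNT C).N V),
            (ofNT C).fmem (opp ((ofNT C).mv l ((ofNT C).mv k x)) z)
              ((ofNT C).mv l ((ofNT C).mv k ((ofNT C).mv v (xs f)))) →
            (ofNT C).feq z ((ofNT C).mv l y) := by
      intro W v x hx
      have h3 := h2 W v x W (𝟙 W)
      simp only [forces_mem, Fin.snoc_castSucc, Fin.snoc_last, (ofNT C).mv_id] at h3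
      have h4 := h3 hx
      rw [forces_ex] at h4
      obtain ⟨Z, g, y, h5⟩ := h4 W (𝟙 W)
      rw [forces_and, forces_pairMemF hop] at h5
      refine ⟨Z, g, y, ?_, ?_⟩
      · simpa only [Fin.snoc_castSucc, Fin.snoc_last, (ofNT C).mv_id] using h5.1
      · intro V l z hz
        have h6 := h5.2 V l z V (𝟙 V)
        rw [forces_pairMemF hop, forces_eq] at h6
        simp only [Fin.snoc_castSucc, Fin.snoc_last, (ofNT C).mv_id] at h6
        exact h6 hz
    refine ⟨fun {W} v p hp => sub v p hp, fun {W} v x y y' hy hy' => ?_, fun {W} v x hx => ?_⟩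
    · refine (ofNT C).feq_local fun Y k => ?_
      obtain ⟨W', k', x1, y1, hx1, _, he⟩ := sub (v ≫ k) ((ofNT C).mv k (opp x y)) (by
        rw [(ofNT C).mv_comp]; exact (ofNT C).fmem_mono k hy)
      have he' := (opp_feq.1 ((ofNT C).feq_trans ((ofNT C).feq_symm (opp_mv2 k k' x y)) he)).1
      have hxa : (ofNT C).fmem ((ofNT C).mv k' ((ofNT C).mv k x))
          ((ofNT C).mv ((v ≫ k) ≫ k') (xs a)) := by
        rw [(ofNT C).mv_comp]
        exact (ofNT C).fmem_congr ((ofNT C).feq_symm he') ((ofNT C).feq_refl _) hx1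
      obtain ⟨V, l, y0, _, huniq⟩ := tot ((v ≫ k) ≫ k') _ hxa
      refine ⟨V, k' ≫ l, ?_⟩
      have h7 := huniq V (𝟙 V) ((ofNT C).mv l ((ofNT C).mv k' ((ofNT C).mv k y))) (by
        simp only [(ofNT C).mv_id, (ofNT C).mv_comp]
        exact pm_mv l (pm_mv k' (pm_mv k hy)))
      have h8 := huniq V (𝟙 V) ((ofNT C).mv l ((ofNT C).mv k' ((ofNT C).mv k y'))) (by
        simp only [(ofNT C).mv_id, (ofNT C).mv_comp]
        exact pm_mv l (pm_mv k' (pm_mv k hy')))
      simp only [(ofNT C).mv_comp]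
      exact (ofNT C).feq_trans h7 ((ofNT C).feq_symm h8)
    · obtain ⟨W', k, y, h3, _⟩ := tot v x hx
      exact ⟨W', k, y, h3⟩
  · intro h
    constructor
    · intro Y v p Z g hp
      simp only [forces_mem, Fin.snoc_castSucc, Fin.snoc_last] at hp
      refine forces_ex_dense fun Y' f' => ?_
      obtain ⟨W', k, x, y, h1, h2, h3⟩ := h.sub (v ≫ g ≫ f') ((ofNT C).mv f' ((ofNT C).mv g p)) (by
        simp only [(ofNT C).mv_comp]; exact (ofNT C).fmem_mono f' hp)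
      refine ⟨W', k, x, forces_ex_of y ?_⟩
      rw [forces_and, forces_and, hop]
      simp only [forces_mem, Fin.snoc_castSucc, Fin.snoc_last, (ofNT C).mv_comp] at h1 h2 h3 ⊢
      exact ⟨h1, h2, h3⟩
    · intro Y v x Z g hx
      simp only [forces_mem, Fin.snoc_castSucc, Fin.snoc_last] at hx
      refine forces_ex_dense fun Y' f' => ?_
      obtain ⟨W', k, y, h1⟩ := h.total (v ≫ g ≫ f') ((ofNT C).mv f' ((ofNT C).mv g x)) (by
        simp only [(ofNT C).mv_comp]; exact (ofNT C).fmem_mono f' hx)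
      refine ⟨W', k, y, ?_⟩
      rw [forces_and, forces_pairMemF hop]
      refine ⟨?_, ?_⟩
      · simpa only [Fin.snoc_castSucc, Fin.snoc_last, (ofNT C).mv_comp] using h1
      · intro V l z V' l' hz
        rw [forces_pairMemF hop] at hz
        rw [forces_eq]
        simp only [Fin.snoc_castSucc, Fin.snoc_last] at hz ⊢
        refine h.func (v ≫ g ≫ f' ≫ k ≫ l ≫ l')
          ((ofNT C).mv l' ((ofNT C).mv l ((ofNT C).mv k ((ofNT C).mv f' ((ofNT C).mv g x)))))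
          _ _ ?_ ?_
        · simpa only [(ofNT C).mv_comp] using hz
        · have := pm_mv l' (pm_mv l h1)
          simpa only [(ofNT C).mv_comp] using this

/-! ### Surjections and injections -/

/-- `FOnto` in the language of `ofNT C`. -/
def GOnto {X : C} (F B : (ofNT C).N X) : Prop :=
  ∀ (W : C) (v : X ⟶ W) (y : (ofNT C).N W), (ofNT C).fmem y ((ofNT C).mv v B) →
    ∃ (W' : C) (k : W ⟶ W') (x : (ofNT C).N W'),
      (ofNT C).fmem (opp x ((ofNT C).mv k y)) ((ofNT C).mv (v ≫ k) F)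

/-- `FInj` in the language of `ofNT C`. -/
def GInj {X : C} (F : (ofNT C).N X) : Prop :=
  ∀ (W : C) (v : X ⟶ W) (x x' y : (ofNT C).N W), (ofNT C).fmem (opp x y) ((ofNT C).mv v F) →
    (ofNT C).fmem (opp x' y) ((ofNT C).mv v F) → (ofNT C).feq x x'

theorem forces_surj (hop : OpOK C) {n : ℕ} (f a b : Fin n) {X : C}
    (xs : Fin n → (ofNT C).N X) (h : Forces (ofNT C) (surjectionF f a b) X xs) :
    GFun (xs f) (xs a) (xs b) ∧ GOnto (xs f) (xs b) := by
  rw [surjectionF, forces_and, forces_functionF hop] at h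
  refine ⟨h.1, fun W v y hy => ?_⟩
  have h1 := h.2 W v y W (𝟙 W)
  simp only [forces_mem, Fin.snoc_castSucc, Fin.snoc_last, (ofNT C).mv_id] at h1
  have h2 := h1 hy
  rw [forces_ex] at h2
  obtain ⟨Z, g, x, h3⟩ := h2 W (𝟙 W)
  rw [forces_and, forces_pairMemF hop] at h3
  simp only [forces_mem, Fin.snoc_castSucc, Fin.snoc_last, (ofNT C).mv_id] at h3
  have h4 := h3.2
  rw [← (ofNT C).mv_comp] at h4
  exact ⟨Z, g, x, h4⟩

theorem forces_inj (hop : OpOK C) {n : ℕ} (f a b : Fin n) {X : C}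
    (xs : Fin n → (ofNT C).N X) (h1 : GFun (xs f) (xs a) (xs b))
    (h2 : GInj (xs f)) : Forces (ofNT C) (injectionF f a b) X xs := by
  rw [injectionF, forces_and, forces_functionF hop]
  refine ⟨h1, ?_⟩
  intro Y1 v1 x Y2 v2 x' Y3 v3 y Y4 v4 h3 Y5 v5 h4
  rw [forces_pairMemF hop] at h3 h4
  rw [forces_eq]
  simp only [Fin.snoc_castSucc, Fin.snoc_last] at h3 h4 ⊢
  have h5 := pm_mv v5 h3
  have := h2 _ (v1 ≫ v2 ≫ v3 ≫ v4 ≫ v5)
    ((ofNT C).mv v5 ((ofNT C).mv v4 ((ofNT C).mv v3 ((ofNT C).mv v2 x))))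
    ((ofNT C).mv v5 ((ofNT C).mv v4 ((ofNT C).mv v3 x'))) ((ofNT C).mv v5 ((ofNT C).mv v4 y))
  simp only [(ofNT C).mv_comp] at this
  exact this h5 h4

/-! ### The Partition Principle -/

theorem gpp (hPP : PPForced C) (X : C) (F A B : (ofNT C).N X) (h1 : GFun F A B)
    (h2 : GOnto F B) : ∃ (Y : C) (k : X ⟶ Y) (J : (ofNT C).N Y),
      GFun J ((ofNT C).mv k B) ((ofNT C).mv k A) ∧ GInj J := by
  obtain ⟨Y, k, J, hJ1, hJ2⟩ := hPP X F A B ((gfun_iff F A B).1 h1) (fun {W} v y hy => h2 W v y hy)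
  exact ⟨Y, k, J, (gfun_iff _ _ _).2 hJ1, fun W v x x' y h3 h4 => hJ2 v x x' y h3 h4⟩

theorem valid_ppF (hop : OpOK C) (hPP : PPForced C) : Valid (ofNT C) ppF := by
  refine valid_all (valid_all (valid_imp fun X xs hx => ?_))
  refine forces_ex_dense fun Y f => ?_
  rw [forces_ex] at hx
  obtain ⟨Z, g, F, hF⟩ := hx Y f
  have hF' := forces_surj hop _ _ _ _ hF
  obtain ⟨W, k, J, hJ1, hJ2⟩ := gpp hPP _ _ _ _ hF'.1 hF'.2
  refine ⟨W, g ≫ k, J, forces_inj hop _ _ _ _ ?_ ?_⟩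
  · simp only [Fin.snoc_castSucc, Fin.snoc_last, (ofNT C).mv_comp] at hJ1 ⊢
    exact hJ1
  · simp only [Fin.snoc_last]
    exact hJ2

/-! ### The Axiom of Choice -/

theorem gac (hAC : NoAC C) (X : C) : ∃ (Y : C) (_ : X ⟶ Y) (A : (ofNT C).N Y),
    (∀ (W : C) (v : Y ⟶ W) (x : (ofNT C).N W), (ofNT C).fmem x ((ofNT C).mv v A) →
      ∃ (W' : C) (k : W ⟶ W') (y : (ofNT C).N W'), (ofNT C).fmem y ((ofNT C).mv k x)) ∧
    ∀ (W : C) (v : Y ⟶ W) (K : (ofNT C).N W),
      ¬ ((∀ (V : C) (k : W ⟶ V) (x y y' : (ofNT C).N V),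
        (ofNT C).fmem (opp x y) ((ofNT C).mv k K) → (ofNT C).fmem (opp x y') ((ofNT C).mv k K) →
          (ofNT C).feq y y') ∧
        (∀ (V : C) (k : W ⟶ V) (x : (ofNT C).N V),
          (ofNT C).fmem x ((ofNT C).mv k ((ofNT C).mv v A)) →
          ∃ (V' : C) (l : V ⟶ V') (y : (ofNT C).N V'),
            (ofNT C).fmem (opp ((ofNT C).mv l x) y) ((ofNT C).mv l ((ofNT C).mv k K)) ∧
              (ofNT C).fmem y ((ofNT C).mv l x))) := by
  obtain ⟨Y, k, A, h1, h2⟩ := hAC X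
  refine ⟨Y, k, A, fun W v x hx => h1 v x hx, fun W v K hK => h2 v K ⟨?_, ?_⟩⟩
  · exact fun {V} k x y y' h3 h4 => hK.1 V k x y y' h3 h4
  · intro V k x hx
    obtain ⟨V', l, y, h3, h4⟩ := hK.2 V k x hx
    rw [← (ofNT C).mv_comp] at h3
    exact ⟨V', l, y, h3, h4⟩

theorem valid_neg_acF (hop : OpOK C) (hAC : NoAC C) : Valid (ofNT C) acF.neg := by
  intro X xs Y f hY
  obtain ⟨Z, k, A, hne, hno⟩ := gac hAC Y
  have h1 := hY Z k A Z (𝟙 Z)
  have h2 := h1 (by
    intro Y1 v1 x Y2 v2 hx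
    simp only [forces_mem, Fin.snoc_castSucc, Fin.snoc_last] at hx
    refine forces_ex_dense fun Y3 v3 => ?_
    have hx' := (ofNT C).fmem_mono v3 hx
    obtain ⟨W', l, y, hy⟩ := hne _ (v1 ≫ v2 ≫ v3) ((ofNT C).mv v3 ((ofNT C).mv v2 x)) (by
      simp only [(ofNT C).mv_comp, (ofNT C).mv_id] at hx' ⊢
      exact hx')
    refine ⟨W', l, y, ?_⟩
    simp only [forces_mem, Fin.snoc_castSucc, Fin.snoc_last]
    exact hy)
  rw [forces_ex] at h2
  obtain ⟨Z1, g1, c, h3⟩ := h2 Z (𝟙 Z)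
  rw [forces_ex] at h3
  obtain ⟨Z2, g2, U, h4⟩ := h3 Z1 (𝟙 Z1)
  rw [forces_and, forces_functionF hop] at h4
  simp only [Fin.snoc_castSucc, Fin.snoc_last, (ofNT C).mv_id] at h4
  obtain ⟨h5, h6⟩ := h4
  refine hno _ (g1 ≫ g2) ((ofNT C).mv g2 c) ⟨fun V k x y y' h7 h8 => h5.func k x y y' h7 h8,
    fun W v x hx => ?_⟩
  rw [(ofNT C).mv_comp] at hx
  obtain ⟨W', l, y, hy⟩ := h5.total v x hx
  refine ⟨W', l, y, hy, ?_⟩
  have h7 := h6 W' (v ≫ l) ((ofNT C).mv l x) W' (𝟙 W') y W' (𝟙 W')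
  rw [forces_pairMemF hop] at h7
  simp only [forces_mem, Fin.snoc_castSucc, Fin.snoc_last, (ofNT C).mv_id, (ofNT C).mv_comp] at h7
  exact h7 hy

end

end Vale.Agent.P323.H530
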