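import Vale.Agent.P323.H70.Size
import Vale.Agent.P323.P11.BB

/-!
# Cardinality of the coloured category: `CardStmt D`
-/

namespace Vale.Agent.P323.H530

open CategoryTheory Vale.Agent.P323.Z Cardinal

variable (D : Type 1) [Category.{1} D] [Tw D]

theorem mk_arrows : #(Σ x y : D, (x ⟶ y)) ≤ #(Ordinal.{0}) := by
  classical
  refine P323.H70.mk_le_of_birth (fun f => (TwBase.mem_ex f.2.2).choose) fun i => ?_
  have h := TwBase.small (D := D) i
  let g : {f : Σ x y : D, (x ⟶ y) // (TwBase.mem_ex f.2.2).choose = i} →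
      {f : Σ x y : D, (x ⟶ y) // TwBase.Mem i f.2.2} := fun f => ⟨f.1, by
        have := (TwBase.mem_ex f.1.2.2).choose_spec
        rw [f.2] at this
        exact this⟩
  have hg : Function.Injective g := fun a b hab => Subtype.ext (congrArg Subtype.val hab :)
  exact small_of_injective hg

theorem mk_objects : #D ≤ #(Ordinal.{0}) := by
  refine P323.H70.mk_le_of_injective' (U := Σ x y : D, (x ⟶ y)) (fun x => ⟨x, x, 𝟙 x⟩)
    (fun x y h => ?_) (mk_arrows D)
  exact congrArg Sigma.fst h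

theorem mk_hom (x y : D) : #(x ⟶ y) ≤ #(Ordinal.{0}) := by
  refine P323.H70.mk_le_of_injective' (U := Σ x y : D, (x ⟶ y)) (fun f => ⟨x, y, f⟩)
    (fun f g h => ?_) (mk_arrows D)
  simpa using h

theorem mk_dn (x : D) : #(Dn x) ≤ #(Ordinal.{0}) :=
  P323.H70.mk_sigma_le (mk_objects D) fun z => mk_hom D z x

theorem mk_cobj : #(CObj D) ≤ #(Ordinal.{0}) := by
  classical
  have hU : #(ULift.{1} Bool) ≤ #(Ordinal.{0}) := P323.H70.mk_le_of_small _
  refine P323.H70.mk_le_of_injective'
    (U := Σ x : D, {f : Dn x → Option (ULift.{1} Bool) // Small.{0} {t | f t ≠ none}})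
    (fun X => ⟨X.x, fun z => (X.p z).map ULift.up, ?_⟩) ?_
    (P323.H70.mk_sigma_le (mk_objects D) fun x => P323.H70.mk_small_partial_le (mk_dn D x) hU)
  · have h := X.sm
    have e : {t | (X.p t).map (ULift.up.{1}) ≠ none} = {z | X.p z ≠ none} := by
      ext z
      simp
    rw [e]
    exact h
  · rintro ⟨x, p, hp⟩ ⟨y, q, hq⟩ h
    simp only [Sigma.mk.injEq] at h
    obtain ⟨rfl, h⟩ := h
    have h' := congrArg Subtype.val (eq_of_heq h)
    have : p = q := by
      funext z
      have hz := congrFun h' z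
      exact Option.map_injective ULift.up_injective hz
    subst this
    rfl

theorem mk_chom (X Y : CObj D) : #(X ⟶ Y) ≤ #(Ordinal.{0}) :=
  P323.H70.mk_le_of_injective' (U := (X.x ⟶ Y.x)) (fun f => f.u) (fun _ _ h => chom_ext h)
    (mk_hom D _ _)

theorem cardStmt : P11.CardStmt D := by
  intro T X Z f hf hT
  have h : #T ≤ #(Ordinal.{0}) := P323.H70.mk_le_of_injective' f hf
    (P323.H70.mk_sigma_le (mk_cobj D) fun b => P323.H70.mk_prod_le (mk_chom D X b) (mk_chom D Z b))
  obtain ⟨asg, hasg⟩ := P323.H70.exists_asg h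
  refine ⟨asg, fun q j => ?_⟩
  obtain ⟨b, hb, hb'⟩ := hasg q j
  exact ⟨b, hb, hb'⟩

end Vale.Agent.P323.H530
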